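import Vale.Agent.P137.Main
import Vale.Agent.P137.Ball
import Vale.Agent.P137.Meas
import Vale.Agent.P137.Low
import Vale.Agent.P137.Up
import Vale.Agent.P137.WG

/-!
Variation bound for the centered Hardy-Littlewood maximal operator on block-decreasing functions,
in every dimension.
-/

open MeasureTheory ENNReal

namespace Vale.Agent.Results.P137.BlockDecreasing

theorem result (n : ℕ) : ∃ C : ℝ≥0∞, C ≠ ∞ ∧ ∀ f : EuclideanSpace ℝ (Fin (n + 1)) → ℝ,
    Measurable f → P137.BlockDecreasing f → Integrable f →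
      (P137.variation f ≠ ∞ →
        (∀ᵐ x, P137.maxFun f x ≠ ∞) ∧ P137.BD (P137.maxFun f) ∧
        LocallyIntegrable (P137.M f) ∧ P137.variation (P137.M f) ≤ C * P137.variation f) ∧
      (∀ g : EuclideanSpace ℝ (Fin (n + 1)) → EuclideanSpace ℝ (Fin (n + 1)),
        Integrable g → P137.IsWeakGradient f g →
        (∀ᵐ x, P137.maxFun f x ≠ ∞) ∧ LocallyIntegrable (P137.M f) ∧
        P137.variation (P137.M f) ≤ C * ∫⁻ x, ‖g x‖ₑ) := by
  obtain ⟨C, hC, h⟩ := P137.mainThm P137.ball P137.meas P137.low P137.up n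
  refine ⟨C, hC, fun f hfm hf hfi => ⟨fun hV => h f hfm hf hfi hV, fun g hg hw => ?_⟩⟩
  have h1 : P137.variation f ≤ ∫⁻ x, ‖g x‖ₑ := P137.wg (n + 1) f g hfi hg hw
  have h2 : P137.variation f ≠ ∞ := ne_top_of_le_ne_top hg.hasFiniteIntegral.ne h1
  obtain ⟨a, _, c, d⟩ := h f hfm hf hfi h2
  exact ⟨a, c, d.trans (by gcongr)⟩

end Vale.Agent.Results.P137.BlockDecreasing
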