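import Vale.Agent.P137.AC.A
import Vale.Agent.P137.AC.B
import Vale.Agent.P137.AC.C
import Vale.Agent.P137.AC.DThm
import Vale.Agent.P137.AC.E
import Vale.Agent.P137.AC.F
import Vale.Agent.P137.AC.LINE
import Vale.Agent.P137.AC.Final

/-!
Weak gradient of the centered Hardy-Littlewood maximal function of a block-decreasing function in
`W^{1,1}`, in every dimension, with the L¹ gradient bound.
-/

open MeasureTheory ENNReal

namespace Vale.Agent.Results.P137.WeakGradient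

theorem result (n : ℕ) : ∃ C : ℝ≥0∞, C ≠ ∞ ∧
    ∀ (f : EuclideanSpace ℝ (Fin (n + 1)) → ℝ)
      (g : EuclideanSpace ℝ (Fin (n + 1)) → EuclideanSpace ℝ (Fin (n + 1))),
      Measurable f → P137.BlockDecreasing f → Integrable f → Integrable g →
      P137.IsWeakGradient f g →
      (∀ᵐ x, P137.maxFun f x ≠ ∞) ∧ LocallyIntegrable (P137.M f) ∧
        ∃ G : EuclideanSpace ℝ (Fin (n + 1)) → EuclideanSpace ℝ (Fin (n + 1)),
          Integrable G ∧ P137.IsWeakGradient (P137.M f) G ∧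
          ∫⁻ x, ‖G x‖ₑ ≤ C * ∫⁻ x, ‖g x‖ₑ := by
  obtain ⟨C, hC, h⟩ := P137.final (P137.AC.LINE.thm P137.AC.A.thm P137.AC.B.thm
    (P137.AC.C.thm P137.AC.A.thm P137.AC.B.thm) P137.AC.D.thm P137.AC.E.thm P137.AC.F.thm) n
  refine ⟨C, hC, fun f g h1 h2 h3 h4 h5 => ?_⟩
  obtain ⟨a, b, G, _, c, d, e⟩ := h f g h1 h2 h3 h4 h5
  exact ⟨a, b, G, c, d, e⟩

end Vale.Agent.Results.P137.WeakGradient
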